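import Mathlib

open MeasureTheory Set

namespace Vale.Agent.P243

abbrev E3 := EuclideanSpace ℝ (Fin 3)

/-- explicit determinant of three vectors -/
def D3 (p q u : E3) : ℝ :=
  p 0 * (q 1 * u 2 - q 2 * u 1) - p 1 * (q 0 * u 2 - q 2 * u 0) + p 2 * (q 0 * u 1 - q 1 * u 0)

lemma inner_E3 (p q : E3) : inner ℝ p q = p 0 * q 0 + p 1 * q 1 + p 2 * q 2 := by
  simp [PiLp.inner_apply, Fin.sum_univ_three]; ring

lemma norm_sq_E3 (u : E3) : ‖u‖ ^ 2 = u 0 * u 0 + u 1 * u 1 + u 2 * u 2 := by
  rw [← real_inner_self_eq_norm_sq, inner_E3]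

lemma proj_eq (u : E3) (hu : ‖u‖ = 1) (z : E3) :
    (ℝ ∙ u)ᗮ.starProjection z = z - (inner ℝ u z) • u := by
  rw [Submodule.starProjection_orthogonal_val, Submodule.starProjection_unit_singleton ℝ hu]

lemma finrank_perp (u : E3) (hu : ‖u‖ = 1) : Module.finrank ℝ (ℝ ∙ u)ᗮ = 2 := by
  have hne : u ≠ 0 := by
    intro h; rw [h] at hu; simp at hu
  have h1 : Module.finrank ℝ (ℝ ∙ u) = 1 := finrank_span_singleton hne
  have h2 := Submodule.finrank_add_finrank_orthogonal (ℝ ∙ u)
  rw [h1] at h2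
  simp at h2
  omega

lemma area_image (u a p q : E3) (hu : ‖u‖ = 1) (S : Set (ℝ × ℝ)) (hS : MeasurableSet S) :
    μHE[2] ((ℝ ∙ u)ᗮ.starProjection '' ((fun z : ℝ × ℝ => a + z.1 • p + z.2 • q) '' S))
      = ENNReal.ofReal |D3 p q u| * volume S := by
  set W : Submodule ℝ E3 := (ℝ ∙ u)ᗮ with hW
  let b : OrthonormalBasis (Fin 2) ℝ W :=
    (stdOrthonormalBasis ℝ W).reindex (finCongr (finrank_perp u hu))
  let ι : EuclideanSpace ℝ (Fin 2) → E3 := fun v => ((b.repr.symm v : W) : E3)
  have hι : Isometry ι := isometry_subtype_coe.comp b.repr.symm.isometry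
  let P : E3 →L[ℝ] W := W.orthogonalProjectionOnto
  let M : Matrix (Fin 2) (Fin 2) ℝ := !![b.repr (P p) 0, b.repr (P q) 0; b.repr (P p) 1, b.repr (P q) 1]
  let L : EuclideanSpace ℝ (Fin 2) →ₗ[ℝ] EuclideanSpace ℝ (Fin 2) := Matrix.toLpLin 2 2 M
  let f : EuclideanSpace ℝ (Fin 2) → ℝ × ℝ := fun v => (v 0, v 1)
  have hf : MeasurePreserving f volume volume :=
    (volume_preserving_finTwoArrow ℝ).comp (PiLp.volume_preserving_ofLp (Fin 2))
  let c : EuclideanSpace ℝ (Fin 2) := b.repr (P a)
  have hL : ∀ v : EuclideanSpace ℝ (Fin 2), L v = v 0 • b.repr (P p) + v 1 • b.repr (P q) := by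
    intro v
    ext i
    fin_cases i <;> simp [L, M, Matrix.toLpLin_apply, dotProduct,
      Fin.sum_univ_two] <;> ring
  have key : W.starProjection '' ((fun z : ℝ × ℝ => a + z.1 • p + z.2 • q) '' S)
      = ι '' ((fun v => c + v) '' (L '' (f ⁻¹' S))) := by
    ext z
    simp only [mem_image, mem_preimage]
    constructor
    · rintro ⟨_, ⟨s, hs, rfl⟩, rfl⟩
      refine ⟨_, ⟨_, ⟨!₂[s.1, s.2], by simpa [f] using hs, rfl⟩, rfl⟩, ?_⟩
      rw [hL]
      simp [ι, c, P, add_assoc]
    · rintro ⟨_, ⟨_, ⟨v, hv, rfl⟩, rfl⟩, rfl⟩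
      refine ⟨_, ⟨f v, hv, rfl⟩, ?_⟩
      rw [hL]
      simp [ι, c, P, f, add_assoc]
  rw [key, hι.euclideanHausdorffMeasure_image, EuclideanSpace.euclideanHausdorffMeasure_eq_volume,
    Set.image_add_left, measure_preimage_add, Measure.addHaar_image_linearMap,
    hf.measure_preimage hS.nullMeasurableSet]
  congr 2
  have hdet : LinearMap.det L = M.det := by
    simp only [L]
    rw [Matrix.toLpLin_eq_toLin, LinearMap.det_toLin]
  rw [hdet, ← sq_eq_sq_iff_abs_eq_abs]
  have hin : ∀ x y : E3, b.repr (P x) 0 * b.repr (P y) 0 + b.repr (P x) 1 * b.repr (P y) 1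
      = inner ℝ x y - inner ℝ u x * inner ℝ u y := by
    intro x y
    have h1 : inner ℝ (b.repr (P x)) (b.repr (P y)) = inner ℝ (P x) (P y) :=
      b.repr.inner_map_map _ _
    have h2 : inner ℝ (P x) (P y) = inner ℝ (W.starProjection x) (W.starProjection y) := rfl
    have hx : W.starProjection x = x - (inner ℝ u x) • u := proj_eq u hu x
    have hy : W.starProjection y = y - (inner ℝ u y) • u := proj_eq u hu y
    rw [h2, hx, hy] at h1
    have h3 : inner ℝ u u = (1:ℝ) := by rw [real_inner_self_eq_norm_sq, hu]; norm_num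
    have h4 : inner ℝ (b.repr (P x)) (b.repr (P y))
        = b.repr (P x) 0 * b.repr (P y) 0 + b.repr (P x) 1 * b.repr (P y) 1 := by
      simp only [PiLp.inner_apply, Fin.sum_univ_two, RCLike.inner_apply, conj_trivial]
      ring
    rw [h4] at h1
    rw [h1]
    simp only [inner_sub_left, inner_sub_right, inner_smul_left, inner_smul_right, h3,
      real_inner_comm u x, conj_trivial]
    ring
  have hpp := hin p p
  have hqq := hin q q
  have hpq := hin p q
  have hn := norm_sq_E3 u
  rw [hu] at hn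
  simp only [inner_E3] at hpp hqq hpq
  have hM : M.det ^ 2 = (b.repr (P p) 0 * b.repr (P p) 0 + b.repr (P p) 1 * b.repr (P p) 1) *
      (b.repr (P q) 0 * b.repr (P q) 0 + b.repr (P q) 1 * b.repr (P q) 1) -
      (b.repr (P p) 0 * b.repr (P q) 0 + b.repr (P p) 1 * b.repr (P q) 1) ^ 2 := by
    simp [M, Matrix.det_fin_two]; ring
  rw [hM, hpp, hqq, hpq]
  unfold D3
  linear_combination ((p 0 * p 0 + p 1 * p 1 + p 2 * p 2) * (q 0 * q 0 + q 1 * q 1 + q 2 * q 2)
    - (p 0 * q 0 + p 1 * q 1 + p 2 * q 2) ^ 2) * hn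

/-- the closed standard triangle -/
def triC : Set (ℝ × ℝ) := {z | 0 ≤ z.1 ∧ 0 ≤ z.2 ∧ z.1 + z.2 ≤ 1}

lemma isClosed_triC : IsClosed triC := by
  unfold triC
  refine (isClosed_le continuous_const continuous_fst).inter
    ((isClosed_le continuous_const continuous_snd).inter
      (isClosed_le (continuous_fst.add continuous_snd) continuous_const))

lemma isCompact_triC : IsCompact triC := by
  refine (isCompact_Icc (a := ((0:ℝ), (0:ℝ))) (b := (1, 1))).of_isClosed_subset isClosed_triC ?_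
  rintro ⟨x, y⟩ ⟨h1, h2, h3⟩
  simp only at h1 h2 h3
  exact ⟨⟨h1, h2⟩, ⟨by simp only; linarith, by simp only; linarith⟩⟩

lemma volume_triC : volume triC = ENNReal.ofReal (1 / 2) := by
  rw [Measure.volume_eq_prod, Measure.prod_apply isClosed_triC.measurableSet]
  have h : ∀ x : ℝ, volume (Prod.mk x ⁻¹' triC)
      = (Icc (0:ℝ) 1).indicator (fun x => ENNReal.ofReal (1 - x)) x := by
    intro x
    by_cases hx : x ∈ Icc (0:ℝ) 1
    · rw [indicator_of_mem hx]
      have : Prod.mk x ⁻¹' triC = Icc 0 (1 - x) := by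
        ext y
        simp only [triC, mem_preimage, mem_ofPred_eq, mem_Icc]
        constructor
        · rintro ⟨_, h2, h3⟩; exact ⟨h2, by linarith⟩
        · rintro ⟨h2, h3⟩; exact ⟨hx.1, h2, by linarith⟩
      rw [this, Real.volume_Icc, sub_zero]
    · rw [indicator_of_notMem hx]
      have : Prod.mk x ⁻¹' triC = ∅ := by
        ext y
        simp only [triC, mem_preimage, mem_ofPred_eq, mem_empty_iff_false, iff_false]
        rintro ⟨h1, h2, h3⟩
        exact hx ⟨h1, by linarith⟩
      rw [this, measure_empty]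
  simp_rw [h]
  rw [lintegral_indicator measurableSet_Icc, ← ofReal_integral_eq_lintegral_ofReal]
  · congr 1
    rw [integral_Icc_eq_integral_Ioc, ← intervalIntegral.integral_of_le zero_le_one]
    rw [intervalIntegral.integral_sub (by simp) (by simp)]
    simp [integral_id]; norm_num
  · exact (continuous_const.sub continuous_id).integrableOn_Icc
  · filter_upwards [ae_restrict_mem measurableSet_Icc] with x hx
    simp only [Pi.zero_apply]; linarith [hx.2]

/-- the standard triangle with its bottom side removed -/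
def triO : Set (ℝ × ℝ) := triC \ (univ ×ˢ {0})

lemma measurableSet_triO : MeasurableSet triO :=
  isClosed_triC.measurableSet.diff (MeasurableSet.univ.prod (measurableSet_singleton _))

lemma volume_triO : volume triO = ENNReal.ofReal (1 / 2) := by
  unfold triO
  rw [measure_sdiff_null, volume_triC]
  rw [Measure.volume_eq_prod, Measure.prod_prod]
  simp

end Vale.Agent.P243
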