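import Mathlib

namespace Vale.Agent.P243

/-- tilt parameter -/
noncomputable def cc : ℝ := 1 / 100
/-- half width of a wedge -/
noncomputable def eta : ℝ := 1 / 20000
/-- height of the triangle with midpoint slope `s` -/
noncomputable def hh (s : ℝ) : ℝ := 1 / 2 + 6 / 10 ^ 7 + 103 / 10 ^ 6 * (s ^ 2 + s ^ 4)
/-- product term -/
noncomputable def AA (s : ℝ) : ℝ := 1 + s ^ 2 - eta ^ 2
/-- normalised length of the direction -/
noncomputable def NN (s : ℝ) : ℝ := Real.sqrt (1 + (cc * AA s) ^ 2 + 2 * (2 * cc * s) ^ 2)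

lemma hh_pos (s : ℝ) : 0 < hh s := by unfold hh; positivity

lemma NN_pos (s : ℝ) : 0 < NN s := by unfold NN; positivity

lemma NN_sq (s : ℝ) : NN s ^ 2 = 1 + (cc * AA s) ^ 2 + 2 * (2 * cc * s) ^ 2 := by
  unfold NN; rw [Real.sq_sqrt]; positivity

lemma abs_mul_le' (a d r : ℝ) (ha : |a| ≤ 1) (hd : |d| ≤ r) : |a * d| ≤ r := by
  rw [abs_mul]
  calc |a| * |d| ≤ 1 * r := mul_le_mul ha hd (abs_nonneg _) zero_le_one
    _ = r := one_mul _

lemma sq_le_one' (s : ℝ) (hs : |s| ≤ 1) : s ^ 2 ≤ 1 := by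
  rw [← sq_abs]; nlinarith [abs_nonneg s]

lemma AA_nonneg (s : ℝ) : 0 ≤ AA s := by unfold AA eta; nlinarith [sq_nonneg s]

lemma AA_le (s : ℝ) : AA s ≤ 1 + s ^ 2 := by unfold AA; nlinarith [sq_nonneg eta]

lemma half_lt_hh (s : ℝ) : 1 / 2 < hh s := by
  unfold hh
  have h1 := sq_nonneg s
  have h2 : 0 ≤ s ^ 4 := by positivity
  nlinarith

lemma aux_bound (B s t p d E : ℝ) (hB0 : 0 ≤ B) (hB1 : B ≤ 1 + t ^ 2) (ht2 : t ^ 2 ≤ 1)
    (hp0 : 0 ≤ p) (hpE : p ≤ 1 / 2 + E) (hd : s * d ≤ eta * p) :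
    B * (s ^ 2 * p + s * d) ≤ (1 + t ^ 2) * (s ^ 2 * (1 / 2 + E)) + 2 * (eta * p) := by
  have heta : 0 < eta := by unfold eta; norm_num
  have e1 : B * (s ^ 2 * p) ≤ (1 + t ^ 2) * (s ^ 2 * (1 / 2 + E)) := by
    apply mul_le_mul hB1 _ (by positivity) (by positivity)
    exact mul_le_mul_of_nonneg_left hpE (sq_nonneg s)
  have e2 : B * (s * d) ≤ 2 * (eta * p) := by
    calc B * (s * d) ≤ B * (eta * p) := mul_le_mul_of_nonneg_left hd hB0
      _ ≤ 2 * (eta * p) := mul_le_mul_of_nonneg_right (by linarith) (by positivity)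
  rw [mul_add]
  linarith

lemma final_contra (E F G : ℝ) (hE0 : 0 < E) (_hF0 : 0 ≤ F) (hF4 : F ≤ 4)
    (hEeq : E = 2 * cc * G)
    (hb9 : G ≤ E + eta * (1 + E) + cc * (F * (1 / 2 + E) + 2 * (eta * (1 + E))))
    (hlow : 12 / 10 ^ 7 + 103 / 10 ^ 6 * F < E) : False := by
  have hEF : F * E ≤ 4 * E := mul_le_mul_of_nonneg_right hF4 hE0.le
  unfold cc eta at *
  have e : F * (1 / 2 + E) = F / 2 + F * E := by ring
  rw [e] at hb9
  norm_num at hlow hb9 hEeq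
  linarith

lemma key_ineq (x y w s t p q : ℝ) (hs : |s| ≤ 1) (ht : |t| ≤ 1)
    (hp : p = w + 2 * cc * s * x) (hq : q = 1 - w + 2 * cc * t * y)
    (h1 : (s - eta) * p ≤ y + cc * x * AA s) (h2 : y + cc * x * AA s ≤ (s + eta) * p)
    (h3 : (t - eta) * q ≤ -x + cc * y * AA t) (h4 : -x + cc * y * AA t ≤ (t + eta) * q)
    (h5 : hh s < p) (h6 : hh t < q) : False := by
  have hA0 := AA_nonneg s
  have hB0 := AA_nonneg t
  have hA1 := AA_le s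
  have hB1 := AA_le t
  generalize AA s = A at *
  generalize AA t = B at *
  obtain ⟨d1, hd1⟩ : ∃ d1, d1 = y + cc * x * A - s * p := ⟨_, rfl⟩
  obtain ⟨d2, hd2⟩ : ∃ d2, d2 = -x + cc * y * B - t * q := ⟨_, rfl⟩
  obtain ⟨E, hE⟩ : ∃ E, E = p + q - 1 := ⟨_, rfl⟩
  have hs2 := sq_le_one' s hs
  have ht2 := sq_le_one' t ht
  have hp0 : 1 / 2 < p := lt_trans (half_lt_hh s) h5
  have hq0 : 1 / 2 < q := lt_trans (half_lt_hh t) h6
  have hE0 : 0 < E := by linarith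
  have hEeq : E = 2 * cc * (s * x + t * y) := by rw [hE, hp, hq]; ring
  have hd1a : |d1| ≤ eta * p := by rw [abs_le]; constructor <;> linarith
  have hd2a : |d2| ≤ eta * q := by rw [abs_le]; constructor <;> linarith
  have hid : s * x + t * y = s * t * (p - q) + t * d1 - s * d2
      + cc * (B * (s ^ 2 * p + s * d1) + A * (t ^ 2 * q + t * d2))
      - cc ^ 2 * A * B * (s * x + t * y) := by
    rw [hd1, hd2]; ring
  have hcc : (0:ℝ) < cc := by unfold cc; norm_num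
  have hsum : 0 < s * x + t * y := by
    by_contra h
    push Not at h
    have := mul_nonpos_of_nonneg_of_nonpos (show 0 ≤ 2 * cc by positivity) h
    linarith
  have hb1 : s * t * (p - q) ≤ E := by
    have h7 : |s * t| ≤ 1 := abs_mul_le' s t 1 hs ht
    have h8 : |p - q| ≤ E := by rw [abs_le]; constructor <;> linarith
    exact (abs_le.1 (abs_mul_le' _ _ _ h7 h8)).2
  have hb2 := abs_le.1 (abs_mul_le' t d1 _ ht hd1a)
  have hb3 := abs_le.1 (abs_mul_le' s d2 _ hs hd2a)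
  have hb4 := abs_le.1 (abs_mul_le' s d1 _ hs hd1a)
  have hb5 := abs_le.1 (abs_mul_le' t d2 _ ht hd2a)
  have hb6 := aux_bound B s t p d1 E hB0 hB1 ht2 (by linarith) (by linarith) hb4.2
  have hb7 := aux_bound A t s q d2 E hA0 hA1 hs2 (by linarith) (by linarith) hb5.2
  have hb8 : 0 ≤ cc ^ 2 * A * B * (s * x + t * y) := by positivity
  have hF4 : s ^ 2 + t ^ 2 + 2 * (s ^ 2 * t ^ 2) ≤ 4 := by
    have : s ^ 2 * t ^ 2 ≤ 1 := mul_le_one₀ hs2 (sq_nonneg t) ht2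
    linarith
  have e6 : eta * p + eta * q = eta * (1 + E) := by rw [hE]; ring
  refine final_contra E (s ^ 2 + t ^ 2 + 2 * (s ^ 2 * t ^ 2)) (s * x + t * y) hE0
    (by positivity) hF4 hEeq ?_ ?_
  · have e3 : cc * (B * (s ^ 2 * p + s * d1) + A * (t ^ 2 * q + t * d2))
        ≤ cc * ((s ^ 2 + t ^ 2 + 2 * (s ^ 2 * t ^ 2)) * (1 / 2 + E) + 2 * (eta * (1 + E))) := by
      apply mul_le_mul_of_nonneg_left _ hcc.le
      have e5 : (1 + t ^ 2) * (s ^ 2 * (1 / 2 + E)) + (1 + s ^ 2) * (t ^ 2 * (1 / 2 + E))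
          = (s ^ 2 + t ^ 2 + 2 * (s ^ 2 * t ^ 2)) * (1 / 2 + E) := by ring
      linarith
    linarith
  · have e7 : 2 * (s ^ 2 * t ^ 2) ≤ s ^ 4 + t ^ 4 := by
      have := sq_nonneg (s ^ 2 - t ^ 2)
      have e : (s ^ 2 - t ^ 2) ^ 2 = s ^ 4 + t ^ 4 - 2 * (s ^ 2 * t ^ 2) := by ring
      linarith
    unfold hh at h5 h6
    linarith

/-- telescoping potential -/
noncomputable def Phi (θ : ℝ) : ℝ :=
  (1 / 4 - 118 / 10 ^ 7) * θ - 217 / 10 ^ 7 * θ ^ 3 / 3 + 906 / 10 ^ 7 * θ ^ 5 / 5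

lemma inv_bound (z N : ℝ) (hz0 : 0 ≤ z) (hz1 : z ≤ 12 / 10000) (hN : 0 < N)
    (hN2 : N ^ 2 = 1 + z) : 1 ≤ (1 - 499 / 1000 * z) * N := by
  have h1 : 0 ≤ 1 - 499 / 1000 * z := by linarith
  have h2 : (1:ℝ) ^ 2 ≤ ((1 - 499 / 1000 * z) * N) ^ 2 := by
    rw [mul_pow, hN2]; nlinarith [mul_nonneg hz0 hz0, mul_nonneg (mul_nonneg hz0 hz0) hz0]
  exact (pow_le_pow_iff_left₀ zero_le_one (by positivity) two_ne_zero).1 h2

lemma div_bound (z N H : ℝ) (hz0 : 0 ≤ z) (hz1 : z ≤ 12 / 10000) (hN : 0 < N)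
    (hN2 : N ^ 2 = 1 + z) (hH : 1 / 4 ≤ H) : H / N ≤ H - 499 / 4000 * z := by
  have hinv := inv_bound z N hz0 hz1 hN hN2
  rw [div_le_iff₀ hN]
  have h1 : H * 1 ≤ H * ((1 - 499 / 1000 * z) * N) :=
    mul_le_mul_of_nonneg_left hinv (by linarith)
  have h3 : H * (1 - 499 / 1000 * z) ≤ H - 499 / 4000 * z := by nlinarith
  have h4 := mul_le_mul_of_nonneg_right h3 hN.le
  calc H = H * 1 := (mul_one _).symm
    _ ≤ H * ((1 - 499 / 1000 * z) * N) := h1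
    _ = H * (1 - 499 / 1000 * z) * N := by ring
    _ ≤ _ := h4

lemma z_bounds (S : ℝ) (h0 : 0 ≤ S) (h1 : S ≤ 1) :
    (1 / 100) ^ 2 * ((1 + S - (1 / 20000) ^ 2) ^ 2 + 8 * S) ≤ 12 / 10000 ∧
    (1 / 100) ^ 2 * (1 + 10 * S + S ^ 2 - 4 * (1 / 20000) ^ 2)
      ≤ (1 / 100) ^ 2 * ((1 + S - (1 / 20000) ^ 2) ^ 2 + 8 * S) := by
  constructor <;> nlinarith

lemma eps_bounds (ε : ℝ) (h0 : 0 ≤ ε) (h1 : ε ≤ 3 / 10000) :
    (1 / 2 + ε) ^ 2 ≤ 1 / 4 + 10003 / 10000 * ε ∧ 1 / 4 ≤ (1 / 2 + ε) ^ 2 := by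
  constructor <;> nlinarith

lemma term_le (s : ℝ) (hs : |s| ≤ 1) :
    eta * hh s ^ 2 / NN s ≤ (Phi (s + eta) - Phi (s - eta)) / 2 := by
  have hs2 := sq_le_one' s hs
  have hs0 : 0 ≤ s ^ 2 := sq_nonneg s
  have hs44 : s ^ 4 = (s ^ 2) ^ 2 := by ring
  have hs4 : s ^ 4 ≤ 1 := by rw [hs44]; exact pow_le_one₀ hs0 hs2
  have hs40 : 0 ≤ s ^ 4 := by positivity
  have hN2 : NN s ^ 2
      = 1 + (1 / 100) ^ 2 * ((1 + s ^ 2 - (1 / 20000) ^ 2) ^ 2 + 8 * s ^ 2) := by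
    rw [NN_sq]; unfold cc AA eta; ring
  obtain ⟨hz1, hzlow⟩ := z_bounds (s ^ 2) hs0 hs2
  have hh1 : hh s = 1 / 2 + (6 / 10 ^ 7 + 103 / 10 ^ 6 * (s ^ 2 + s ^ 4)) := by unfold hh; ring
  obtain ⟨hh2, hh3⟩ := eps_bounds (6 / 10 ^ 7 + 103 / 10 ^ 6 * (s ^ 2 + s ^ 4))
    (by positivity) (by linarith)
  rw [← hh1] at hh2 hh3
  have hmain := div_bound _ (NN s) (hh s ^ 2) (by positivity) hz1 (NN_pos s) hN2 hh3
  have hPhi : (Phi (s + eta) - Phi (s - eta)) / 2 = eta * ((1 / 4 - 118 / 10 ^ 7)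
      - 217 / 10 ^ 7 * (s ^ 2 + (1 / 20000) ^ 2 / 3)
      + 906 / 10 ^ 7 * (s ^ 4 + 2 * (1 / 20000) ^ 2 * s ^ 2 + (1 / 20000) ^ 4 / 5)) := by
    unfold Phi eta; ring
  rw [hPhi, mul_div_assoc]
  apply mul_le_mul_of_nonneg_left _ (by unfold eta; norm_num)
  rw [← hs44] at hzlow
  linarith

/-- number of wedges -/
def NW : ℕ := 20000

/-- midpoint slope of the `j`-th wedge -/
noncomputable def mid (j : ℕ) : ℝ := -1 + (2 * j + 1) * eta

lemma abs_mid_le (j : ℕ) (hj : j < NW) : |mid j| ≤ 1 := by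
  have h1 : (j : ℝ) + 1 ≤ 20000 := by
    have : j + 1 ≤ 20000 := hj
    exact_mod_cast this
  have h0 : (0:ℝ) ≤ j := Nat.cast_nonneg j
  unfold mid eta
  rw [abs_le]; constructor <;> linarith

lemma sum_le : ∑ j ∈ Finset.range NW, eta * hh (mid j) ^ 2 / NN (mid j) ≤ 1 / 4 - 9 / 10 ^ 7 := by
  calc ∑ j ∈ Finset.range NW, eta * hh (mid j) ^ 2 / NN (mid j)
      ≤ ∑ j ∈ Finset.range NW, (Phi (-1 + 2 * ((j + 1 : ℕ) : ℝ) * eta) / 2
          - Phi (-1 + 2 * (j : ℝ) * eta) / 2) := by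
        apply Finset.sum_le_sum
        intro j hj
        have := term_le (mid j) (abs_mid_le j (Finset.mem_range.1 hj))
        have e1 : mid j + eta = -1 + 2 * ((j + 1 : ℕ) : ℝ) * eta := by
          unfold mid; push_cast; ring
        have e2 : mid j - eta = -1 + 2 * (j : ℝ) * eta := by unfold mid; ring
        rw [e1, e2] at this
        linarith
    _ = Phi (-1 + 2 * ((NW : ℕ) : ℝ) * eta) / 2 - Phi (-1 + 2 * ((0 : ℕ) : ℝ) * eta) / 2 :=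
        Finset.sum_range_sub (fun j : ℕ => Phi (-1 + 2 * (j : ℝ) * eta) / 2) NW
    _ ≤ 1 / 4 - 9 / 10 ^ 7 := by
        unfold Phi NW eta; norm_num

lemma discrete_ivt (g : ℕ → ℝ) (n : ℕ) (hn : 0 < n) (h0 : 0 ≤ g 0) (h1 : g n ≤ 0) :
    ∃ j < n, 0 ≤ g j ∧ g (j + 1) ≤ 0 := by
  induction n with
  | zero => omega
  | succ m ih =>
    by_cases hm : 0 ≤ g m
    · exact ⟨m, by omega, hm, h1⟩
    · have hm0 : 0 < m := by
        rcases Nat.eq_zero_or_pos m with h | h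
        · subst h; exact absurd h0 hm
        · exact h
      obtain ⟨j, hj, h⟩ := ih hm0 (le_of_lt (not_le.1 hm))
      exact ⟨j, by omega, h⟩

lemma exists_wedge (x y w : ℝ) (hy : |y| ≤ w) :
    ∃ j < NW, (mid j - eta) * (w + 2 * cc * mid j * x) ≤ y + cc * x * AA (mid j) ∧
      y + cc * x * AA (mid j) ≤ (mid j + eta) * (w + 2 * cc * mid j * x) := by
  have hy' := abs_le.1 hy
  obtain ⟨j, hj, h1, h2⟩ := discrete_ivt
    (fun j : ℕ => y - (-1 + 2 * (j : ℝ) * eta) * w + cc * x * (1 - (-1 + 2 * (j : ℝ) * eta) ^ 2))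
    NW (by unfold NW; norm_num) (by simp; linarith) (by unfold NW eta; norm_num; linarith)
  refine ⟨j, hj, ?_, ?_⟩
  · have e2 : -1 + 2 * (j : ℝ) * eta = mid j - eta := by unfold mid; ring
    simp only [e2] at h1
    unfold AA; nlinarith
  · have e1 : -1 + 2 * ((j + 1 : ℕ) : ℝ) * eta = mid j + eta := by
      unfold mid; push_cast; ring
    simp only [e1] at h2
    unfold AA; nlinarith

end Vale.Agent.P243
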