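import Mathlib
import Vale.Agent.P243.Area
import Vale.Agent.P243.Key

open MeasureTheory Set

namespace Vale.Agent.P243

lemma tri_subset (K : Set E3) (hK : Convex ℝ K) (A B C : E3) (hA : A ∈ K) (hB : B ∈ K)
    (hC : C ∈ K) : (fun z : ℝ × ℝ => A + z.1 • (B - A) + z.2 • (C - A)) '' triC ⊆ K := by
  rintro _ ⟨z, ⟨h1, h2, h3⟩, rfl⟩
  have := hK.sum_mem (t := Finset.univ) (w := ![1 - z.1 - z.2, z.1, z.2]) (z := ![A, B, C])
    (by intro i _; fin_cases i <;> simp <;> linarith)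
    (by simp [Fin.sum_univ_three]; ring)
    (by intro i _; fin_cases i <;> simpa)
  convert this using 1
  simp [Fin.sum_univ_three]
  module

lemma area_tri (K : Set E3) (hK : Convex ℝ K) (u : E3) (hu : ‖u‖ = 1) (A B C : E3) (hA : A ∈ K)
    (hB : B ∈ K) (hC : C ∈ K) :
    ENNReal.ofReal (|D3 (B - A) (C - A) u| / 2) ≤ μHE[2] ((ℝ ∙ u)ᗮ.starProjection '' K) := by
  have h := area_image u A (B - A) (C - A) hu triC isClosed_triC.measurableSet
  rw [volume_triC, ← ENNReal.ofReal_mul (abs_nonneg _)] at h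
  have e : |D3 (B - A) (C - A) u| / 2 = |D3 (B - A) (C - A) u| * (1 / 2) := by ring
  rw [e, ← h]
  exact measure_mono (image_mono (tri_subset K hK A B C hA hB hC))

lemma D3_proj (p a u : E3) (hu : ‖u‖ = 1) (z : E3) :
    D3 p ((ℝ ∙ u)ᗮ.starProjection z - a) u = D3 p (z - a) u := by
  rw [proj_eq u hu]
  simp [D3]; ring

lemma area_two (K : Set E3) (hK : Convex ℝ K) (u : E3) (hu : ‖u‖ = 1) (A B C D : E3) (hA : A ∈ K)
    (hB : B ∈ K) (hC : C ∈ K) (hD : D ∈ K) (h1 : 0 ≤ D3 (B - A) (C - A) u)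
    (h2 : D3 (B - A) (D - A) u < 0) :
    ENNReal.ofReal ((D3 (B - A) (C - A) u - D3 (B - A) (D - A) u) / 2)
      ≤ μHE[2] ((ℝ ∙ u)ᗮ.starProjection '' K) := by
  let H : Set E3 := {z | 0 ≤ D3 (B - A) (z - A) u}
  have hH : MeasurableSet H := by
    apply IsClosed.measurableSet
    apply isClosed_le continuous_const
    unfold D3
    fun_prop
  rw [← measure_inter_add_sdiff _ hH]
  have hc := area_image u A (B - A) (C - A) hu triC isClosed_triC.measurableSet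
  have hd := area_image u A (B - A) (D - A) hu triO measurableSet_triO
  rw [volume_triC, ← ENNReal.ofReal_mul (abs_nonneg _), abs_of_nonneg h1] at hc
  rw [volume_triO, ← ENNReal.ofReal_mul (abs_nonneg _), abs_of_neg h2] at hd
  have e : (D3 (B - A) (C - A) u - D3 (B - A) (D - A) u) / 2
      = D3 (B - A) (C - A) u * (1 / 2) + -D3 (B - A) (D - A) u * (1 / 2) := by ring
  rw [e, ENNReal.ofReal_add (by positivity) (by linarith), ← hc, ← hd]
  apply add_le_add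
  · apply measure_mono
    rintro _ ⟨_, ⟨z, hz, rfl⟩, rfl⟩
    refine ⟨⟨_, tri_subset K hK A B C hA hB hC ⟨z, hz, rfl⟩, rfl⟩, ?_⟩
    simp only [H, mem_ofPred_eq]
    rw [D3_proj _ _ _ hu]
    have : D3 (B - A) (A + z.1 • (B - A) + z.2 • (C - A) - A) u = z.2 * D3 (B - A) (C - A) u := by
      simp [D3]; ring
    rw [this]
    exact mul_nonneg hz.2.1 h1
  · apply measure_mono
    rintro _ ⟨_, ⟨z, hz, rfl⟩, rfl⟩
    refine ⟨⟨_, tri_subset K hK A B D hA hB hD ⟨z, hz.1, rfl⟩, rfl⟩, ?_⟩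
    simp only [H, mem_ofPred_eq, not_le]
    rw [D3_proj _ _ _ hu]
    have : D3 (B - A) (A + z.1 • (B - A) + z.2 • (D - A) - A) u = z.2 * D3 (B - A) (D - A) u := by
      simp [D3]; ring
    rw [this]
    have hz2 : 0 < z.2 := by
      have h3 := hz.1.2.1
      have h4 := hz.2
      simp only [mem_prod, mem_univ, mem_singleton_iff, true_and] at h4
      exact lt_of_le_of_ne h3 (Ne.symm h4)
    exact mul_neg_of_pos_of_neg hz2 h2

lemma area_quad (K : Set E3) (hK : Convex ℝ K) (u : E3) (hu : ‖u‖ = 1) (A B C D : E3) (hA : A ∈ K)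
    (hB : B ∈ K) (hC : C ∈ K) (hD : D ∈ K) :
    ENNReal.ofReal (|D3 (B - A) (C - D) u| / 2) ≤ μHE[2] ((ℝ ∙ u)ᗮ.starProjection '' K) := by
  have e : D3 (B - A) (C - D) u = D3 (B - A) (C - A) u - D3 (B - A) (D - A) u := by
    simp [D3]; ring
  rw [e]
  have t1 := area_tri K hK u hu A B C hA hB hC
  have t2 := area_tri K hK u hu A B D hA hB hD
  have q1 := area_two K hK u hu A B C D hA hB hC hD
  have q2 := area_two K hK u hu A B D C hA hB hD hC
  generalize D3 (B - A) (C - A) u = τ1 at *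
  generalize D3 (B - A) (D - A) u = τ2 at *
  rcases le_or_gt 0 τ1 with h1 | h1 <;> rcases le_or_gt 0 τ2 with h2 | h2
  · rcases le_total τ1 τ2 with h | h
    · refine le_trans (ENNReal.ofReal_le_ofReal ?_) t2
      rw [abs_of_nonpos (by linarith), abs_of_nonneg h2]; linarith
    · refine le_trans (ENNReal.ofReal_le_ofReal ?_) t1
      rw [abs_of_nonneg (by linarith), abs_of_nonneg h1]; linarith
  · refine le_trans (ENNReal.ofReal_le_ofReal ?_) (q1 h1 h2)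
    rw [abs_of_nonneg (by linarith)]
  · refine le_trans (ENNReal.ofReal_le_ofReal ?_) (q2 h2 h1)
    rw [abs_of_nonpos (by linarith)]; linarith
  · rcases le_total τ1 τ2 with h | h
    · refine le_trans (ENNReal.ofReal_le_ofReal ?_) t1
      rw [abs_of_nonpos (by linarith), abs_of_neg h1]; linarith
    · refine le_trans (ENNReal.ofReal_le_ofReal ?_) t2
      rw [abs_of_nonneg (by linarith), abs_of_neg h2]; linarith

lemma abs_add_le_max (a b : ℝ) (m : ENNReal) (h1 : ENNReal.ofReal |a + b| ≤ m)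
    (h2 : ENNReal.ofReal |a - b| ≤ m) : ENNReal.ofReal (|a| + |b|) ≤ m := by
  rcases le_total 0 a with ha | ha <;> rcases le_total 0 b with hb | hb
  · rwa [abs_of_nonneg ha, abs_of_nonneg hb, ← abs_of_nonneg (add_nonneg ha hb)]
  · rw [abs_of_nonneg (by linarith)] at h2
    rwa [abs_of_nonneg ha, abs_of_nonpos hb]
  · rw [abs_of_nonpos (by linarith)] at h2
    rw [abs_of_nonpos ha, abs_of_nonneg hb]
    convert h2 using 2; ring
  · rw [abs_of_nonpos (by linarith)] at h1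
    rw [abs_of_nonpos ha, abs_of_nonpos hb]
    convert h1 using 2; ring

lemma sqrt_le_of_cases (a b c : ℝ) (m : ENNReal) (h1 : ENNReal.ofReal (|a| + |b|) ≤ m)
    (h2 : ENNReal.ofReal (|a| + |c|) ≤ m) (h3 : ENNReal.ofReal (|b| + |c|) ≤ m)
    (h4 : ENNReal.ofReal (|c| + |c|) ≤ m) :
    ENNReal.ofReal (Real.sqrt (a ^ 2 + b ^ 2 + 2 * c ^ 2)) ≤ m := by
  rw [← sq_abs a, ← sq_abs b, ← sq_abs c]
  have ha := abs_nonneg a
  have hb := abs_nonneg b
  have hc := abs_nonneg c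
  generalize |a| = A at *
  generalize |b| = B at *
  generalize |c| = C at *
  rcases le_total C A with hA | hA <;> rcases le_total C B with hB | hB
  · refine le_trans (ENNReal.ofReal_le_ofReal ?_) h1
    apply Real.sqrt_le_iff.2 ⟨by linarith, by nlinarith [mul_le_mul hA hB hc ha]⟩
  · refine le_trans (ENNReal.ofReal_le_ofReal ?_) h2
    apply Real.sqrt_le_iff.2 ⟨by linarith, by nlinarith⟩
  · refine le_trans (ENNReal.ofReal_le_ofReal ?_) h3
    apply Real.sqrt_le_iff.2 ⟨by linarith, by nlinarith⟩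
  · refine le_trans (ENNReal.ofReal_le_ofReal ?_) h4
    apply Real.sqrt_le_iff.2 ⟨by linarith, by nlinarith⟩

lemma proj_lower (K : Set E3) (hK : Convex ℝ K) (O e1 e2 e3 : E3) (h1 : O + e1 ∈ K)
    (h4 : O - e1 ∈ K) (h2 : O + e3 + e2 ∈ K) (h3 : O + e3 - e2 ∈ K) (u : E3) (hu : ‖u‖ = 1) :
    ENNReal.ofReal (Real.sqrt (D3 e2 e3 u ^ 2 + D3 e3 e1 u ^ 2 + 2 * D3 e1 e2 u ^ 2))
      ≤ μHE[2] ((ℝ ∙ u)ᗮ.starProjection '' K) := by
  have Q := area_quad K hK u hu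
  have conv : ∀ (x y : ℝ), x = 2 * y ∨ x = -(2 * y) → |x| / 2 = |y| := by
    intro x y h
    rcases h with h | h <;> rw [h] <;> simp [abs_mul]
  apply sqrt_le_of_cases
  · apply abs_add_le_max
    · have := Q _ _ _ _ h1 h2 h3 h4
      rwa [conv _ (D3 e2 e3 u + D3 e3 e1 u) (Or.inl (by simp [D3]; ring))] at this
    · have := Q _ _ _ _ h1 h3 h2 h4
      rwa [conv _ (D3 e2 e3 u - D3 e3 e1 u) (Or.inr (by simp [D3]; ring))] at this
  · apply abs_add_le_max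
    · have := Q _ _ _ _ h2 h3 h1 h2
      rwa [conv _ (D3 e2 e3 u + D3 e1 e2 u) (Or.inl (by simp [D3]; ring))] at this
    · have := Q _ _ _ _ h2 h3 h4 h2
      rwa [conv _ (D3 e2 e3 u - D3 e1 e2 u) (Or.inl (by simp [D3]; ring))] at this
  · apply abs_add_le_max
    · have := Q _ _ _ _ h1 h4 h3 h1
      rwa [conv _ (D3 e3 e1 u + D3 e1 e2 u) (Or.inl (by simp [D3]; ring))] at this
    · have := Q _ _ _ _ h1 h4 h2 h1
      rwa [conv _ (D3 e3 e1 u - D3 e1 e2 u) (Or.inl (by simp [D3]; ring))] at this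
  · have := Q _ _ _ _ h1 h4 h2 h3
    rw [conv _ (D3 e1 e2 u + D3 e1 e2 u) (Or.inr (by simp [D3]; ring))] at this
    rwa [← two_mul, abs_mul, abs_two, two_mul] at this

/-- direction of the cylinder with midpoint slope `s` -/
noncomputable def dir (e1 e2 e3 : E3) (s : ℝ) : E3 := e1 - (cc * AA s) • e2 - (2 * cc * s) • e3

/-- unit direction -/
noncomputable def udir (e1 e2 e3 : E3) (s : ℝ) : E3 := ‖dir e1 e2 e3 s‖⁻¹ • dir e1 e2 e3 s

/-- triangular base -/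
noncomputable def base (O e1 e2 e3 : E3) (s : ℝ) : Set E3 :=
  (ℝ ∙ udir e1 e2 e3 s)ᗮ.starProjection ''
    ((fun z : ℝ × ℝ => O + z.1 • (hh s • ((s - eta) • e2 + e3))
      + z.2 • (hh s • ((s + eta) • e2 + e3))) '' triC)

lemma dir_ne_zero (e1 e2 e3 : E3) (hD : D3 e1 e2 e3 ≠ 0) (s : ℝ) : dir e1 e2 e3 s ≠ 0 := by
  intro h
  apply hD
  have : D3 e1 e2 e3 = D3 e2 e3 (dir e1 e2 e3 s) := by simp [D3, dir]; ring
  rw [this, h]; simp [D3]

lemma norm_udir (e1 e2 e3 : E3) (hD : D3 e1 e2 e3 ≠ 0) (s : ℝ) : ‖udir e1 e2 e3 s‖ = 1 := by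
  have := norm_pos_iff.2 (dir_ne_zero e1 e2 e3 hD s)
  unfold udir
  rw [norm_smul, norm_inv, norm_norm, inv_mul_cancel₀ this.ne']

lemma isCompact_base (O e1 e2 e3 : E3) (s : ℝ) : IsCompact (base O e1 e2 e3 s) := by
  unfold base
  apply IsCompact.image _ (ContinuousLinearMap.continuous _)
  apply isCompact_triC.image
  fun_prop

lemma base_subset (O e1 e2 e3 : E3) (s : ℝ) :
    base O e1 e2 e3 s ⊆ ((ℝ ∙ udir e1 e2 e3 s)ᗮ : Submodule ℝ E3) := by
  rintro _ ⟨z, _, rfl⟩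
  exact Submodule.starProjection_apply_mem _ z

lemma area_base (O e1 e2 e3 : E3) (hD : D3 e1 e2 e3 ≠ 0) (s : ℝ) :
    μHE[2] (base O e1 e2 e3 s)
      = ENNReal.ofReal (eta * hh s ^ 2 * (|D3 e1 e2 e3| / ‖dir e1 e2 e3 s‖)) := by
  unfold base
  rw [area_image _ _ _ _ (norm_udir e1 e2 e3 hD s) triC isClosed_triC.measurableSet, volume_triC,
    ← ENNReal.ofReal_mul (abs_nonneg _)]
  congr 1
  have : D3 (hh s • ((s - eta) • e2 + e3)) (hh s • ((s + eta) • e2 + e3)) (udir e1 e2 e3 s)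
      = -(2 * (eta * hh s ^ 2 * ‖dir e1 e2 e3 s‖⁻¹)) * D3 e1 e2 e3 := by
    unfold udir
    generalize ‖dir e1 e2 e3 s‖⁻¹ = r
    simp [D3, dir]; ring
  rw [this, abs_mul, abs_neg, abs_of_nonneg]
  · ring
  · have : 0 < eta := by unfold eta; norm_num
    positivity

lemma mem_cyl (O e1 e2 e3 : E3) (hD : D3 e1 e2 e3 ≠ 0) (s x y w : ℝ)
    (h1 : (s - eta) * (w + 2 * cc * s * x) ≤ y + cc * x * AA s)
    (h2 : y + cc * x * AA s ≤ (s + eta) * (w + 2 * cc * s * x))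
    (h3 : w + 2 * cc * s * x ≤ hh s) :
    ∃ b ∈ base O e1 e2 e3 s, ∃ t : ℝ, O + x • e1 + y • e2 + w • e3 = b + t • udir e1 e2 e3 s := by
  have heta : 0 < eta := by unfold eta; norm_num
  have hh0 := hh_pos s
  have hn := norm_pos_iff.2 (dir_ne_zero e1 e2 e3 hD s)
  obtain ⟨p, hp⟩ : ∃ p, p = w + 2 * cc * s * x := ⟨_, rfl⟩
  obtain ⟨y', hy'⟩ : ∃ y', y' = y + cc * x * AA s := ⟨_, rfl⟩
  rw [← hp, ← hy'] at h1 h2
  rw [← hp] at h3
  let z : ℝ × ℝ := (((s + eta) * p - y') / (2 * eta * hh s), (y' - (s - eta) * p) / (2 * eta * hh s))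
  have hz : z ∈ triC := by
    refine ⟨div_nonneg (by linarith) (by positivity), div_nonneg (by linarith) (by positivity), ?_⟩
    simp only [z]
    rw [← add_div, div_le_one (by positivity)]
    nlinarith
  have hQ : O + z.1 • (hh s • ((s - eta) • e2 + e3)) + z.2 • (hh s • ((s + eta) • e2 + e3))
      = O + y' • e2 + p • e3 := by
    have a1 : z.1 * hh s * (s - eta) + z.2 * hh s * (s + eta) = y' := by
      simp only [z]; field_simp; ring
    have a2 : z.1 * hh s + z.2 * hh s = p := by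
      simp only [z]; field_simp; ring
    rw [← a1, ← a2]
    module
  refine ⟨_, ⟨_, ⟨z, hz, rfl⟩, rfl⟩,
    inner ℝ (udir e1 e2 e3 s) (O + y' • e2 + p • e3) + x * ‖dir e1 e2 e3 s‖, ?_⟩
  simp only
  rw [hQ, proj_eq _ (norm_udir e1 e2 e3 hD s), add_smul]
  have : (x * ‖dir e1 e2 e3 s‖) • udir e1 e2 e3 s = x • dir e1 e2 e3 s := by
    unfold udir
    rw [smul_smul, mul_assoc, mul_inv_cancel₀ hn.ne', mul_one]
  rw [this, hp, hy']
  unfold dir
  module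

lemma frame_term (K : Set E3) (hK : Convex ℝ K) (O e1 e2 e3 : E3) (h1 : O + e1 ∈ K)
    (h4 : O - e1 ∈ K) (h2 : O + e3 + e2 ∈ K) (h3 : O + e3 - e2 ∈ K) (hD : D3 e1 e2 e3 ≠ 0)
    (s : ℝ) :
    μHE[2] (base O e1 e2 e3 s) / μHE[2] ((ℝ ∙ udir e1 e2 e3 s)ᗮ.starProjection '' K)
      ≤ ENNReal.ofReal (eta * hh s ^ 2 / NN s) := by
  apply ENNReal.div_le_of_le_mul
  have heta : 0 < eta := by unfold eta; norm_num
  have hN := NN_pos s
  have hn := norm_pos_iff.2 (dir_ne_zero e1 e2 e3 hD s)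
  have hl := proj_lower K hK O e1 e2 e3 h1 h4 h2 h3 _ (norm_udir e1 e2 e3 hD s)
  have e : D3 e2 e3 (udir e1 e2 e3 s) ^ 2 + D3 e3 e1 (udir e1 e2 e3 s) ^ 2
      + 2 * D3 e1 e2 (udir e1 e2 e3 s) ^ 2
      = (NN s * (|D3 e1 e2 e3| / ‖dir e1 e2 e3 s‖)) ^ 2 := by
    rw [mul_pow, div_pow, sq_abs, NN_sq, div_eq_mul_inv, ← inv_pow]
    unfold udir
    generalize ‖dir e1 e2 e3 s‖⁻¹ = r
    simp [D3, dir]; ring
  rw [e, Real.sqrt_sq (by positivity)] at hl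
  rw [area_base O e1 e2 e3 hD s]
  refine le_trans (le_of_eq ?_) (mul_le_mul_right hl _)
  rw [← ENNReal.ofReal_mul (by positivity)]
  congr 1
  field_simp

lemma norm_dir_reg (e1 e2 e3 : E3) (l : ℝ) (hl : 0 ≤ l) (g11 : inner ℝ e1 e1 = l ^ 2)
    (g22 : inner ℝ e2 e2 = l ^ 2) (g33 : inner ℝ e3 e3 = 2 * l ^ 2) (g12 : inner ℝ e1 e2 = 0)
    (g13 : inner ℝ e1 e3 = 0) (g23 : inner ℝ e2 e3 = 0) (s : ℝ) :
    ‖dir e1 e2 e3 s‖ = l * NN s := by
  have hN := NN_pos s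
  rw [← sq_eq_sq₀ (norm_nonneg _) (by positivity), mul_pow, NN_sq, norm_sq_E3]
  simp only [inner_E3] at *
  simp only [dir, PiLp.sub_apply, PiLp.smul_apply, smul_eq_mul]
  generalize cc * AA s = a at *
  generalize 2 * cc * s = b at *
  linear_combination g11 + a ^ 2 * g22 + b ^ 2 * g33 - 2 * a * g12 - 2 * b * g13 + 2 * a * b * g23

lemma min_lower_reg (K : Set E3) (hK : Convex ℝ K) (O e1 e2 e3 : E3) (h1 : O + e1 ∈ K)
    (h4 : O - e1 ∈ K) (h2 : O + e3 + e2 ∈ K) (h3 : O + e3 - e2 ∈ K)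
    (l : ℝ) (hl : 0 < l) (g11 : inner ℝ e1 e1 = l ^ 2)
    (g22 : inner ℝ e2 e2 = l ^ 2) (g33 : inner ℝ e3 e3 = 2 * l ^ 2) (g12 : inner ℝ e1 e2 = 0)
    (g13 : inner ℝ e1 e3 = 0) (g23 : inner ℝ e2 e3 = 0) (u : E3) (hu : ‖u‖ = 1) :
    ENNReal.ofReal (|D3 e1 e2 e3| / l) ≤ μHE[2] ((ℝ ∙ u)ᗮ.starProjection '' K) := by
  have hlow := proj_lower K hK O e1 e2 e3 h1 h4 h2 h3 u hu
  have hn := norm_sq_E3 u
  rw [hu] at hn
  have e : D3 e2 e3 u ^ 2 + D3 e3 e1 u ^ 2 + 2 * D3 e1 e2 u ^ 2 = (|D3 e1 e2 e3| / l) ^ 2 := by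
    rw [div_pow, sq_abs, eq_div_iff (by positivity)]
    have c0 : D3 e1 e2 e3 * u 0 = D3 e2 e3 u * e1 0 + D3 e3 e1 u * e2 0 + D3 e1 e2 u * e3 0 := by
      unfold D3; ring
    have c1 : D3 e1 e2 e3 * u 1 = D3 e2 e3 u * e1 1 + D3 e3 e1 u * e2 1 + D3 e1 e2 u * e3 1 := by
      unfold D3; ring
    have c2 : D3 e1 e2 e3 * u 2 = D3 e2 e3 u * e1 2 + D3 e3 e1 u * e2 2 + D3 e1 e2 u * e3 2 := by
      unfold D3; ring
    simp only [inner_E3] at *
    generalize D3 e1 e2 e3 = d at *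
    generalize D3 e2 e3 u = a at *
    generalize D3 e3 e1 u = b at *
    generalize D3 e1 e2 u = c at *
    have s1 : d ^ 2 = (d * u 0) ^ 2 + (d * u 1) ^ 2 + (d * u 2) ^ 2 := by
      linear_combination d ^ 2 * hn
    rw [s1, c0, c1, c2]
    linear_combination (-a ^ 2) * g11 - b ^ 2 * g22 - c ^ 2 * g33 - 2 * a * b * g12
      - 2 * a * c * g13 - 2 * b * c * g23
  rwa [e, Real.sqrt_sq (by positivity)] at hlow

/-- the tetrahedron in frame coordinates -/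
def box (O e1 e2 e3 : E3) : Set E3 :=
  {P | ∃ x y w : ℝ, |x| ≤ 1 - w ∧ |y| ≤ w ∧ P = O + x • e1 + y • e2 + w • e3}

lemma convex_box (O e1 e2 e3 : E3) : Convex ℝ (box O e1 e2 e3) := by
  rintro _ ⟨x, y, w, h1, h2, rfl⟩ _ ⟨x', y', w', h1', h2', rfl⟩ a b ha hb hab
  refine ⟨a * x + b * x', a * y + b * y', a * w + b * w', ?_, ?_, ?_⟩
  · rw [abs_le] at *
    constructor <;> nlinarith [h1.1, h1.2, h1'.1, h1'.2]
  · rw [abs_le] at *
    constructor <;> nlinarith [h2.1, h2.2, h2'.1, h2'.2]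
  · have : b = 1 - a := by linarith
    rw [this]; module

lemma box_cover (O e1 e2 e3 : E3) (hD : D3 e1 e2 e3 ≠ 0) (P : E3) (hP : P ∈ box O e1 e2 e3) :
    (∃ j < NW, ∃ b ∈ base O e1 e2 e3 (mid j), ∃ t : ℝ, P = b + t • udir e1 e2 e3 (mid j)) ∨
    (∃ j < NW, ∃ b ∈ base (O + e3) e2 (-e1) (-e3) (mid j), ∃ t : ℝ,
      P = b + t • udir e2 (-e1) (-e3) (mid j)) := by
  obtain ⟨x, y, w, hx, hy, rfl⟩ := hP
  have hD' : D3 e2 (-e1) (-e3) ≠ 0 := by
    have : D3 e2 (-e1) (-e3) = -D3 e1 e2 e3 := by simp [D3]; ring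
    rw [this]; exact neg_ne_zero.2 hD
  obtain ⟨j, hj, a1, a2⟩ := exists_wedge x y w hy
  obtain ⟨k, hk, b1, b2⟩ := exists_wedge y (-x) (1 - w) (by rwa [abs_neg])
  by_cases c1 : w + 2 * cc * mid j * x ≤ hh (mid j)
  · exact Or.inl ⟨j, hj, mem_cyl O e1 e2 e3 hD _ x y w a1 a2 c1⟩
  by_cases c2 : 1 - w + 2 * cc * mid k * y ≤ hh (mid k)
  · right
    refine ⟨k, hk, ?_⟩
    obtain ⟨b, hb, t, ht⟩ := mem_cyl (O + e3) e2 (-e1) (-e3) hD' _ y (-x) (1 - w) b1 b2 c2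
    refine ⟨b, hb, t, ?_⟩
    rw [← ht]; module
  exact (key_ineq x y w (mid j) (mid k) _ _ (abs_mid_le j hj) (abs_mid_le k hk) rfl rfl a1 a2 b1 b2
    (not_le.1 c1) (not_le.1 c2)).elim

end Vale.Agent.P243
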