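import Mathlib
import Vale.Agent.P243.Geom

open MeasureTheory Set

namespace Vale.Agent.P243

lemma D3_ne_zero_of_affineIndependent (p : Fin 4 → E3) (hp : AffineIndependent ℝ p) :
    D3 (p 1 - p 0) (p 2 - p 0) (p 3 - p 0) ≠ 0 := by
  have h1 := (affineIndependent_iff_linearIndependent_vsub ℝ p 0).1 hp
  let f : Fin 3 → {x : Fin 4 // x ≠ 0} := fun i => ⟨i.succ, Fin.succ_ne_zero i⟩
  have hf : Function.Injective f := by
    intro i j h
    simpa [f] using h
  have h2 := h1.comp f hf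
  let M : Matrix (Fin 3) (Fin 3) ℝ := fun i j => (p i.succ - p 0) j
  have h3 : LinearIndependent ℝ M.row := by
    have := h2.map' (WithLp.linearEquiv 2 ℝ (Fin 3 → ℝ)).toLinearMap (LinearEquiv.ker _)
    exact this
  rw [Matrix.linearIndependent_rows_iff_isUnit, Matrix.isUnit_iff_isUnit_det,
    isUnit_iff_ne_zero] at h3
  intro h
  apply h3
  rw [Matrix.det_fin_three, ← h]
  simp [M, D3]
  ring

lemma interior_nonempty (p : Fin 4 → E3) (hp : AffineIndependent ℝ p) :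
    (interior (convexHull ℝ (range p))).Nonempty := by
  rw [(convex_convexHull ℝ _).interior_nonempty_iff_affineSpan_eq_top, affineSpan_convexHull,
    hp.affineSpan_eq_top_iff_card_eq_finrank_add_one]
  simp

/-- The main construction, indexed by a sum type. -/
theorem main_sum (p : Fin 4 → E3) (hp : AffineIndependent ℝ p) :
    ∃ (u : Fin NW ⊕ Fin NW → E3) (B : Fin NW ⊕ Fin NW → Set E3),
      (∀ i, ‖u i‖ = 1 ∧ B i ⊆ ((ℝ ∙ u i)ᗮ : Submodule ℝ E3) ∧ IsCompact (B i) ∧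
        μHE[2] (B i) < ⊤) ∧
      (convexHull ℝ (range p) ⊆ ⋃ i, {x | ∃ b ∈ B i, ∃ t : ℝ, x = b + t • u i}) ∧
      (∑ i, μHE[2] (B i) / μHE[2] ((ℝ ∙ u i)ᗮ.starProjection '' convexHull ℝ (range p))
        ≤ ENNReal.ofReal (1 / 2 - 1 / 10 ^ 6)) ∧
      ((∀ i j k l, i ≠ j → k ≠ l → dist (p i) (p j) = dist (p k) (p l)) →
        ∃ X : ℝ, 0 < X ∧ ∑ i, μHE[2] (B i) ≤ ENNReal.ofReal ((1 / 2 - 1 / 10 ^ 6) * X) ∧
          ∀ v : E3, ‖v‖ = 1 →
            ENNReal.ofReal X ≤ μHE[2] ((ℝ ∙ v)ᗮ.starProjection '' convexHull ℝ (range p))) := by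
  obtain ⟨O, hO⟩ : ∃ O : E3, O = (1 / 2 : ℝ) • (p 0 + p 1) := ⟨_, rfl⟩
  obtain ⟨e1, he1⟩ : ∃ e1 : E3, e1 = (1 / 2 : ℝ) • (p 0 - p 1) := ⟨_, rfl⟩
  obtain ⟨e2, he2⟩ : ∃ e2 : E3, e2 = (1 / 2 : ℝ) • (p 2 - p 3) := ⟨_, rfl⟩
  obtain ⟨e3, he3⟩ : ∃ e3 : E3, e3 = (1 / 2 : ℝ) • (p 2 + p 3 - p 0 - p 1) := ⟨_, rfl⟩
  have v0 : p 0 = O + e1 := by rw [hO, he1]; module
  have v1 : p 1 = O - e1 := by rw [hO, he1]; module
  have v2 : p 2 = O + e3 + e2 := by rw [hO, he2, he3]; module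
  have v3 : p 3 = O + e3 - e2 := by rw [hO, he2, he3]; module
  have hD : D3 e1 e2 e3 ≠ 0 := by
    intro h
    apply D3_ne_zero_of_affineIndependent p hp
    have : D3 (p 1 - p 0) (p 2 - p 0) (p 3 - p 0) = -4 * D3 e1 e2 e3 := by
      rw [v0, v1, v2, v3]; simp [D3]; ring
    rw [this, h, mul_zero]
  have hDD : D3 e2 (-e1) (-e3) = -D3 e1 e2 e3 := by simp [D3]; ring
  have hD' : D3 e2 (-e1) (-e3) ≠ 0 := by rw [hDD]; exact neg_ne_zero.2 hD
  set K := convexHull ℝ (range p) with hKdef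
  have hK : Convex ℝ K := convex_convexHull ℝ _
  have m : ∀ i, p i ∈ K := fun i => subset_convexHull ℝ _ (mem_range_self i)
  have k1 : O + e1 ∈ K := v0 ▸ m 0
  have k4 : O - e1 ∈ K := v1 ▸ m 1
  have k2 : O + e3 + e2 ∈ K := v2 ▸ m 2
  have k3 : O + e3 - e2 ∈ K := v3 ▸ m 3
  have k2' : O + e3 + -e3 + -e1 ∈ K := by convert k4 using 1; module
  have k3' : O + e3 + -e3 - -e1 ∈ K := by convert k1 using 1; module
  have hbox : K ⊆ box O e1 e2 e3 := by
    apply convexHull_min _ (convex_box O e1 e2 e3)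
    rintro _ ⟨i, rfl⟩
    fin_cases i
    · exact ⟨1, 0, 0, by simp, by simp, by simp [v0]⟩
    · exact ⟨-1, 0, 0, by simp, by simp, by simp [v1, sub_eq_add_neg]⟩
    · exact ⟨0, 1, 1, by simp, by simp, by simp [v2]; module⟩
    · exact ⟨0, -1, 1, by simp, by simp, by simp [v3]; module⟩
  have heta : 0 < eta := by unfold eta; norm_num
  have hterm : ∀ j : ℕ, 0 ≤ eta * hh (mid j) ^ 2 / NN (mid j) := fun j => by
    have := NN_pos (mid j)
    positivity
  have hsum : ∑ j : Fin NW, eta * hh (mid j) ^ 2 / NN (mid j) ≤ 1 / 4 - 9 / 10 ^ 7 := by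
    rw [Fin.sum_univ_eq_sum_range (fun j : ℕ => eta * hh (mid j) ^ 2 / NN (mid j))]
    exact sum_le
  refine ⟨Sum.elim (fun j => udir e1 e2 e3 (mid j)) (fun j => udir e2 (-e1) (-e3) (mid j)),
    Sum.elim (fun j => base O e1 e2 e3 (mid j)) (fun j => base (O + e3) e2 (-e1) (-e3) (mid j)),
    ?_, ?_, ?_, ?_⟩
  · rintro (j | j)
    · exact ⟨norm_udir _ _ _ hD _, base_subset _ _ _ _ _, isCompact_base _ _ _ _ _,
        by simp only [Sum.elim_inl]; rw [area_base _ _ _ _ hD]; exact ENNReal.ofReal_lt_top⟩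
    · exact ⟨norm_udir _ _ _ hD' _, base_subset _ _ _ _ _, isCompact_base _ _ _ _ _,
        by simp only [Sum.elim_inr]; rw [area_base _ _ _ _ hD']; exact ENNReal.ofReal_lt_top⟩
  · intro P hP
    rcases box_cover O e1 e2 e3 hD P (hbox hP) with ⟨j, hj, h⟩ | ⟨j, hj, h⟩
    · exact mem_iUnion.2 ⟨Sum.inl ⟨j, hj⟩, h⟩
    · exact mem_iUnion.2 ⟨Sum.inr ⟨j, hj⟩, h⟩
  · rw [Fintype.sum_sum_type]
    simp only [Sum.elim_inl, Sum.elim_inr]
    calc _ ≤ ∑ j : Fin NW, ENNReal.ofReal (eta * hh (mid j) ^ 2 / NN (mid j))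
          + ∑ j : Fin NW, ENNReal.ofReal (eta * hh (mid j) ^ 2 / NN (mid j)) := by
          apply add_le_add
          · exact Finset.sum_le_sum fun j _ => frame_term K hK O e1 e2 e3 k1 k4 k2 k3 hD _
          · exact Finset.sum_le_sum fun j _ =>
              frame_term K hK (O + e3) e2 (-e1) (-e3) k2 k3 k2' k3' hD' _
      _ ≤ ENNReal.ofReal (1 / 2 - 1 / 10 ^ 6) := by
          rw [← ENNReal.ofReal_sum_of_nonneg (fun (j : Fin NW) _ => hterm j),
            ← ENNReal.ofReal_add (Finset.sum_nonneg fun (j : Fin NW) _ => hterm j)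
              (Finset.sum_nonneg fun (j : Fin NW) _ => hterm j)]
          apply ENNReal.ofReal_le_ofReal
          linarith
  · intro hreg
    have hd : ∀ i j, i ≠ j → ‖p i - p j‖ ^ 2 = dist (p 0) (p 1) ^ 2 := by
      intro i j hij
      rw [← dist_eq_norm, hreg i j 0 1 hij (by decide)]
    obtain ⟨l, hl⟩ : ∃ l : ℝ, l = dist (p 0) (p 1) / 2 := ⟨_, rfl⟩
    have hl0 : 0 < l := by
      rw [hl]
      have : p 0 ≠ p 1 := fun h => absurd (hp.injective h) (by decide)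
      have := dist_pos.2 this
      positivity
    have hdl : dist (p 0) (p 1) ^ 2 = 4 * l ^ 2 := by rw [hl]; ring
    have d01 := hd 0 1 (by decide)
    have d02 := hd 0 2 (by decide)
    have d03 := hd 0 3 (by decide)
    have d12 := hd 1 2 (by decide)
    have d13 := hd 1 3 (by decide)
    have d23 := hd 2 3 (by decide)
    rw [hdl, norm_sq_E3] at d01 d02 d03 d12 d13 d23
    rw [v0, v1] at d01
    rw [v0, v2] at d02
    rw [v0, v3] at d03
    rw [v1, v2] at d12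
    rw [v1, v3] at d13
    rw [v2, v3] at d23
    simp only [PiLp.sub_apply, PiLp.add_apply] at d01 d02 d03 d12 d13 d23
    have g11 : inner ℝ e1 e1 = l ^ 2 := by rw [inner_E3]; linear_combination (1 / 4) * d01
    have g22 : inner ℝ e2 e2 = l ^ 2 := by rw [inner_E3]; linear_combination (1 / 4) * d23
    have g33 : inner ℝ e3 e3 = 2 * l ^ 2 := by
      rw [inner_E3]
      linear_combination (1 / 4) * (d02 + d03 + d12 + d13) - (1 / 4) * d01 - (1 / 4) * d23
    have g12 : inner ℝ e1 e2 = (0:ℝ) := by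
      rw [inner_E3]; linear_combination (1 / 8) * (d03 + d12 - d02 - d13)
    have g13 : inner ℝ e1 e3 = (0:ℝ) := by
      rw [inner_E3]; linear_combination (1 / 8) * (d12 + d13 - d02 - d03)
    have g23 : inner ℝ e2 e3 = (0:ℝ) := by
      rw [inner_E3]; linear_combination (1 / 8) * (d02 + d12 - d03 - d13)
    have hX : 0 < |D3 e1 e2 e3| / l := div_pos (abs_pos.2 hD) hl0
    refine ⟨|D3 e1 e2 e3| / l, hX, ?_,
      min_lower_reg K hK O e1 e2 e3 k1 k4 k2 k3 l hl0 g11 g22 g33 g12 g13 g23⟩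
    rw [Fintype.sum_sum_type]
    simp only [Sum.elim_inl, Sum.elim_inr]
    have a1 : ∀ j : Fin NW, μHE[2] (base O e1 e2 e3 (mid j))
        = ENNReal.ofReal (eta * hh (mid j) ^ 2 / NN (mid j) * (|D3 e1 e2 e3| / l)) := by
      intro j
      rw [area_base _ _ _ _ hD, norm_dir_reg e1 e2 e3 l hl0.le g11 g22 g33 g12 g13 g23]
      congr 1
      have := NN_pos (mid j)
      field_simp
    have a2 : ∀ j : Fin NW, μHE[2] (base (O + e3) e2 (-e1) (-e3) (mid j))
        = ENNReal.ofReal (eta * hh (mid j) ^ 2 / NN (mid j) * (|D3 e1 e2 e3| / l)) := by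
      intro j
      rw [area_base _ _ _ _ hD', norm_dir_reg e2 (-e1) (-e3) l hl0.le g22
        (by rw [inner_neg_neg, g11]) (by rw [inner_neg_neg, g33])
        (by rw [inner_neg_right, real_inner_comm, g12, neg_zero])
        (by rw [inner_neg_right, g23, neg_zero]) (by rw [inner_neg_neg, g13]), hDD, abs_neg]
      congr 1
      have := NN_pos (mid j)
      field_simp
    simp only [a1, a2]
    have hterm' : ∀ j : Fin NW, 0 ≤ eta * hh (mid j) ^ 2 / NN (mid j) * (|D3 e1 e2 e3| / l) :=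
      fun j => mul_nonneg (hterm j) hX.le
    rw [← ENNReal.ofReal_sum_of_nonneg (fun j _ => hterm' j),
      ← ENNReal.ofReal_add (Finset.sum_nonneg fun j _ => hterm' j)
        (Finset.sum_nonneg fun j _ => hterm' j), ← Finset.sum_mul]
    apply ENNReal.ofReal_le_ofReal
    rw [← add_mul]
    apply mul_le_mul_of_nonneg_right _ hX.le
    linarith

/-- The main construction, indexed by `Fin m`. -/
theorem main_fin (p : Fin 4 → E3) (hp : AffineIndependent ℝ p) :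
    ∃ (m : ℕ) (u : Fin m → E3) (B : Fin m → Set E3),
      (∀ i, ‖u i‖ = 1 ∧ B i ⊆ ((ℝ ∙ u i)ᗮ : Submodule ℝ E3) ∧ IsCompact (B i) ∧
        μHE[2] (B i) < ⊤) ∧
      (convexHull ℝ (range p) ⊆ ⋃ i, {x | ∃ b ∈ B i, ∃ t : ℝ, x = b + t • u i}) ∧
      (∑ i, μHE[2] (B i) / μHE[2] ((ℝ ∙ u i)ᗮ.starProjection '' convexHull ℝ (range p))
        ≤ ENNReal.ofReal (1 / 2 - 1 / 10 ^ 6)) ∧
      ((∀ i j k l, i ≠ j → k ≠ l → dist (p i) (p j) = dist (p k) (p l)) →
        ∃ X : ℝ, 0 < X ∧ ∑ i, μHE[2] (B i) ≤ ENNReal.ofReal ((1 / 2 - 1 / 10 ^ 6) * X) ∧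
          ∀ v : E3, ‖v‖ = 1 →
            ENNReal.ofReal X ≤ μHE[2] ((ℝ ∙ v)ᗮ.starProjection '' convexHull ℝ (range p))) := by
  obtain ⟨u, B, h1, h2, h3, h4⟩ := main_sum p hp
  let e : Fin (NW + NW) ≃ Fin NW ⊕ Fin NW := finSumFinEquiv.symm
  refine ⟨NW + NW, fun i => u (e i), fun i => B (e i), fun i => h1 (e i), ?_, ?_, ?_⟩
  · intro P hP
    obtain ⟨i, hi⟩ := mem_iUnion.1 (h2 hP)
    refine mem_iUnion.2 ⟨e.symm i, ?_⟩
    simpa using hi
  · rw [e.sum_comp (fun i => μHE[2] (B i) /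
      μHE[2] ((ℝ ∙ u i)ᗮ.starProjection '' convexHull ℝ (range p)))]
    exact h3
  · intro hreg
    obtain ⟨X, hX, h5, h6⟩ := h4 hreg
    refine ⟨X, hX, ?_, h6⟩
    rw [e.sum_comp (fun i => μHE[2] (B i))]
    exact h5

lemma proj_lt_top (K : Set E3) (hK : IsCompact K) (u : E3) (hu : ‖u‖ = 1) :
    μHE[2] ((ℝ ∙ u)ᗮ.starProjection '' K) < ⊤ := by
  have e : (ℝ ∙ u)ᗮ.starProjection '' K
      = Subtype.val '' ((ℝ ∙ u)ᗮ.orthogonalProjectionOnto '' K) := by
    rw [image_image]; rfl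
  rw [e, isometry_subtype_coe.euclideanHausdorffMeasure_image]
  have h := InnerProductSpace.euclideanHausdorffMeasure_eq_volume (V := (ℝ ∙ u)ᗮ)
  rw [finrank_perp u hu] at h
  rw [h]
  exact (hK.image (ContinuousLinearMap.continuous _)).measure_lt_top

/-- a regular tetrahedron -/
noncomputable def reg : Fin 4 → E3 := ![!₂[1, 1, 1], !₂[-1, -1, 1], !₂[1, -1, -1], !₂[-1, 1, -1]]

lemma reg_dist (i j : Fin 4) (hij : i ≠ j) : dist (reg i) (reg j) = Real.sqrt 8 := by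
  rw [EuclideanSpace.dist_eq]
  congr 1
  fin_cases i <;> fin_cases j <;> simp [reg, Fin.sum_univ_three, Real.dist_eq] at hij ⊢ <;> norm_num

lemma reg_affineIndependent : AffineIndependent ℝ reg := by
  rw [affineIndependent_iff_of_fintype]
  intro w hw hs
  rw [Finset.weightedVSub_eq_linear_combination _ hw] at hs
  have h0 := congrArg (fun v : E3 => v 0) hs
  have h1 := congrArg (fun v : E3 => v 1) hs
  have h2 := congrArg (fun v : E3 => v 2) hs
  simp [reg, Fin.sum_univ_four] at h0 h1 h2 hw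
  intro i
  fin_cases i <;> simp <;> linarith

end Vale.Agent.P243
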